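import Vale.Agent.P069_h23.NotAuc

namespace Vale.Agent.Results.P069.Disproof

open Vale.Agent.P069h23

/-- There is an infinite-dimensional separable reflexive real Banach space which has an equivalent
asymptotically midpoint uniformly convex norm but no equivalent asymptotically uniformly convex
norm. -/
theorem result : ∃ (X : Type) (_ : NormedAddCommGroup X) (_ : NormedSpace ℝ X),
    CompleteSpace X ∧ ¬ FiniteDimensional ℝ X ∧ TopologicalSpace.SeparableSpace X ∧
      IsReflexive X ∧ AMUCRenormable X ∧ ¬ AUCRenormable X :=
  ⟨X0, inferInstance, inferInstance, inferInstance, X0_infinite, X0_separable, X0_reflexive,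
    X0_amuc, X0_not_auc⟩

end Vale.Agent.Results.P069.Disproof
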