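import Vale.Agent.P069_h23.NotAuc

namespace Vale.Agent.Results.P069.DisproofQuant

open Vale.Agent.P069h23

/-- There is an infinite-dimensional separable reflexive real Banach space whose own norm is
asymptotically midpoint uniformly convex with midpoint modulus at least `√(1 + t²/16) - 1`
(power type 2) and which has no equivalent asymptotically uniformly convex norm. -/
theorem result : ∃ (X : Type) (_ : NormedAddCommGroup X) (_ : NormedSpace ℝ X),
    CompleteSpace X ∧ ¬ FiniteDimensional ℝ X ∧ TopologicalSpace.SeparableSpace X ∧
      IsReflexive X ∧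
      (∀ t : ℝ, 0 < t →
        ((Real.sqrt (1 + t ^ 2 / 16) - 1 : ℝ) : EReal) ≤ amucModulus (normSeminorm ℝ X) t) ∧
      AMUCRenormable X ∧ ¬ AUCRenormable X :=
  ⟨X0, inferInstance, inferInstance, inferInstance, X0_infinite, X0_separable, X0_reflexive,
    fun _ ht => X0_modulus ht, X0_amuc, X0_not_auc⟩

end Vale.Agent.Results.P069.DisproofQuant
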